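import Vale.Agent.P202.Socle

/-!
P202 (Lech's multiplicity conjecture). `(R, m) → (S, n)` is a flat local homomorphism of
Noetherian local rings with `dim R = dim S`.

* Lech's inequality `e(R) ≤ e(S)` holds if `mS + (x, y)` is a reduction of `n` for some
  `x, y ∈ n` (`n^(k+1) ⊆ (mS + (x, y)) n^k` for some `k`), in particular (`k = 0`) for every closed
  fibre of embedding dimension at most two; even `ℓ(R/m^N) ≤ ℓ(S/n^(N+k))` for all `N`.
* For all `x, y ∈ n`: `ℓ(R/m^N) ≤ ℓ(S/(mS + (x, y))^N)`.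
* Dimension-free bound: if `mS + (x_0, ..., x_s)` is a reduction of `n` and
  `x_i^(a_i) ∈ mS + (x_0, ..., x_(i-1))` for `i ≥ 1`, then
  `ℓ(S/(mS + x_0 S)) e(R) ≤ a_1 ⋯ a_s e(S)`.
* If `n^t ⊆ mS` and `n` is generated by `mS` and `s ≥ 2` elements (or `mS + (x_0, ..., x_(s-1))` is
  a reduction of `n`), then `e(R) ≤ t^(s-2) e(S)`.
* If the ideal `I`, `mS ⊆ I ⊆ n`, satisfies `I n ⊆ mS` and is not generated modulo `mS` by one
  element (for example `I = mS : n` if the closed fibre is not Gorenstein), then `I n ⊆ m n`, and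
  `ℓ(S/mS) e(R) ≤ a_0 ⋯ a_(r-1) e(S)` if `I + (x_0, ..., x_(r-1))` is a reduction of `n` and
  `x_i^(a_i) ∈ I + (x_0, ..., x_(i-1))`.
* Lech's inequality for all closed fibres with `n^2 ⊆ mS`.
-/

namespace Vale.Agent.Results.P202.TwoGenerators

open Vale.Agent.P202 IsLocalRing

theorem result {R S : Type*} [CommRing R] [IsLocalRing R] [IsNoetherianRing R] [CommRing S]
    [IsLocalRing S] [IsNoetherianRing S] [Algebra R S] [IsLocalHom (algebraMap R S)]
    [Module.Flat R S] (hdim : ringKrullDim S = ringKrullDim R) :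
    (∀ x ∈ maximalIdeal S, ∀ y ∈ maximalIdeal S,
      (∀ N : ℕ, hilb R N ≤ Module.length S
        (S ⧸ ((maximalIdeal R).map (algebraMap R S) ⊔ Ideal.span {x, y}) ^ N)) ∧
      ∀ k : ℕ, maximalIdeal S ^ (k + 1) ≤
          ((maximalIdeal R).map (algebraMap R S) ⊔ Ideal.span {x, y}) * maximalIdeal S ^ k →
        (∀ N : ℕ, hilb R N ≤ hilb S (N + k)) ∧
        ∀ eR eS : ℝ, IsMult R eR → IsMult S eS → eR ≤ eS) ∧
    (∀ (s : ℕ) (x : ℕ → S) (a : ℕ → ℕ) (k : ℕ),
      (∀ i, 1 ≤ i → i ≤ s → x i ^ a i ∈ Ch R x i) →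
      maximalIdeal S ^ (k + 1) ≤ Ch R x (s + 1) * maximalIdeal S ^ k →
      (∀ N : ℕ, hilb R N * Module.length S (S ⧸ Ch R x 1) ≤
        ((∏ i ∈ Finset.Icc 1 s, a i : ℕ) : ℕ∞) * hilb S (N + k)) ∧
      ∀ eR eS : ℝ, IsMult R eR → IsMult S eS →
        (Module.length S (S ⧸ Ch R x 1)).toNat * eR ≤ (∏ i ∈ Finset.Icc 1 s, a i : ℕ) * eS) ∧
    (∀ (s : ℕ) (x : ℕ → S) (t k : ℕ), 2 ≤ s →
      maximalIdeal S ^ t ≤ (maximalIdeal R).map (algebraMap R S) →
      (∀ i < s, x i ∈ maximalIdeal S) →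
      maximalIdeal S ^ (k + 1) ≤ Ch R x s * maximalIdeal S ^ k →
      (∀ N : ℕ, hilb R N ≤ ((t ^ (s - 2) : ℕ) : ℕ∞) * hilb S (N + k)) ∧
      ∀ eR eS : ℝ, IsMult R eR → IsMult S eS → eR ≤ (t : ℝ) ^ (s - 2) * eS) ∧
    (∀ I : Ideal S, (maximalIdeal R).map (algebraMap R S) ≤ I → I ≤ maximalIdeal S →
      I * maximalIdeal S ≤ (maximalIdeal R).map (algebraMap R S) →
      (∀ v ∈ I, ¬ I ≤ (maximalIdeal R).map (algebraMap R S) ⊔ Ideal.span {v}) →
      I * maximalIdeal S ≤ (maximalIdeal R).map (algebraMap R S) * maximalIdeal S ∧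
      ∀ (r : ℕ) (x : ℕ → S) (a : ℕ → ℕ) (k : ℕ),
        (∀ i < r, x i ^ a i ∈ I ⊔ Ideal.span (x '' Set.Iio i)) →
        maximalIdeal S ^ (k + 1) ≤ (I ⊔ Ideal.span (x '' Set.Iio r)) * maximalIdeal S ^ k →
        ∀ eR eS : ℝ, IsMult R eR → IsMult S eS →
          (Module.length S (S ⧸ (maximalIdeal R).map (algebraMap R S))).toNat * eR ≤
            (∏ i ∈ Finset.range r, a i : ℕ) * eS) ∧
    (maximalIdeal S ^ 2 ≤ (maximalIdeal R).map (algebraMap R S) →
      ∀ eR eS : ℝ, IsMult R eR → IsMult S eS → eR ≤ eS) := by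
  have hF := fibre_ne_top hdim
  refine ⟨fun x hx y hy => ?_, fun s x a k ha hred => ?_, fun s x t k hs ht hx hred => ?_,
    fun I hJI hIn hI hI2 => ⟨socle_mul_le I hI hI2, fun r x a k ha hred eR eS hR hS => ?_⟩,
    fun h2 eR eS hR hS => ?_⟩
  · have h1 := two_elements (R := R) hF x y hx hy
    refine ⟨h1, fun k hred => ?_⟩
    have h2 : ∀ N : ℕ, hilb R N ≤ hilb S (N + k) := fun N =>
      (h1 N).trans (length_quot_anti (pow_le_of_reduction _ _ k hred N))
    refine ⟨h2, fun eR eS hR hS => ?_⟩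
    have := mult_le hdim 1 1 k (fun N => by simpa using h2 N) hR hS
    simpa using this
  · have hprod : ∏ i ∈ Finset.Icc 1 s, a i = ∏ i ∈ Finset.range s, a (i + 1) := by
      rw [Finset.range_eq_Ico, Finset.prod_Ico_add' a 0 s 1]
      rfl
    have h1 : ∀ N : ℕ, hilb R N * Module.length S (S ⧸ Ch R x 1) ≤
        ((∏ i ∈ Finset.Icc 1 s, a i : ℕ) : ℕ∞) * hilb S (N + k) := by
      intro N
      rw [hprod]
      refine (chain_bound (R := R) hF x a s (fun i hi => ha (i + 1) (by omega) (by omega))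
        N).trans ?_
      gcongr
      exact length_quot_anti (pow_le_of_reduction _ _ k hred N)
    refine ⟨h1, fun eR eS hR hS => ?_⟩
    have hc : Module.length S (S ⧸ Ch R x 1) ≠ ⊤ :=
      ne_top_of_le_ne_top hF (length_quot_anti (le_Ch x 1))
    lift Module.length S (S ⧸ Ch R x 1) to ℕ using hc with c
    rw [ENat.toNat_natCast]
    exact mult_le hdim c _ k h1 hR hS
  · obtain ⟨s, rfl⟩ := Nat.exists_eq_add_of_le' hs
    rw [Nat.add_sub_cancel]
    have h1 : ∀ N : ℕ, hilb R N ≤ ((t ^ s : ℕ) : ℕ∞) * hilb S (N + k) := by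
      intro N
      refine (pow_bound (R := R) hF x t s ht hx N).trans ?_
      gcongr
      exact length_quot_anti (pow_le_of_reduction _ _ k hred N)
    refine ⟨h1, fun eR eS hR hS => ?_⟩
    have := mult_le hdim 1 (t ^ s) k (fun N => by simpa using h1 N) hR hS
    simpa using this
  · have h1 := socle_bound (R := R) hF I hJI hIn hI hI2 x a r k ha hred
    lift Module.length S (S ⧸ (maximalIdeal R).map (algebraMap R S)) to ℕ using hF with c
    rw [ENat.toNat_natCast]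
    exact mult_le hdim c _ (1 + k) h1 hR hS
  · have h1 : ∀ N : ℕ, hilb R N ≤ hilb S (N + 1) := fun N => square_zero (R := R) hF h2 N
    have := mult_le hdim 1 1 1 (fun N => by simpa using h1 N) hR hS
    simpa using this

end Vale.Agent.Results.P202.TwoGenerators
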